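import Vale.Agent.P323.M.Chain

/-!
# Permutation models: a counting criterion, and filters whose conjugates are comparable
-/

namespace Vale.Agent.P323.H258

open Vale.Agent.P323

universe u

variable {G : Type u} [Group G] {F : NormalFilter G}

/-- **Counting criterion.** -/
theorem least_of_count (hPP : PP F) (hU : Unif F)
    (h : ∃ K : Subgroup G, F.mem K ∧ ∀ V₀ : Subgroup G, F.mem V₀ →
      ∃ D : Subgroup G, F.mem D ∧ D ≤ V₀ ∧ ∀ K₁ : Subgroup G, F.mem K₁ →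
        ∃ V : Subgroup G, F.mem V ∧
          Cardinal.mk {L : Subgroup G // V ≤ L ∧ ∃ h ∈ K, L = cj h D} <
            Cardinal.mk {P : Subgroup G // V ≤ P ∧ P ≤ K₁}) : False := by
  obtain ⟨K₀, hK₀, hs⟩ := h
  obtain ⟨E, hE, -, hEu⟩ := hU K₀ hK₀
  obtain ⟨D, hD, hDE, hs⟩ := hs E hE
  have huniv : ∀ V : Subgroup G, F.mem V → ∃ h ∈ K₀, ∀ x ∈ D, h * x * h⁻¹ ∈ V := by
    intro V hV
    obtain ⟨h, hh, hx⟩ := hEu V hV
    exact ⟨h, hh, fun x hx' => hx x (hDE hx')⟩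
  obtain ⟨K₁, hK₁, -, hcode⟩ := coded_at hPP hK₀ hD huniv
  obtain ⟨V, hV, hlt⟩ := hs K₁ hK₁
  refine absurd hlt (not_lt.mpr ?_)
  have hc : ∀ P : {P : Subgroup G // V ≤ P ∧ P ≤ K₁}, ∃ h ∈ K₀, P.1 = K₁ ⊓ cj h D := by
    intro P
    obtain ⟨h, hh, hP⟩ := hcode P.1 (F.up hV P.2.1) P.2.2
    refine ⟨h, hh, ?_⟩
    ext x
    rw [hP x, Subgroup.mem_inf, mem_cj]
  choose p hp hpP using hc
  refine Cardinal.mk_le_of_injective
    (f := fun P => (⟨cj (p P) D, ?_, p P, hp P, rfl⟩ :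
      {L : Subgroup G // V ≤ L ∧ ∃ h ∈ K₀, L = cj h D})) ?_
  · have h1 := P.2.1
    rw [hpP P] at h1
    exact h1.trans inf_le_right
  · intro P Q hPQ
    have h1 : cj (p P) D = cj (p Q) D := congrArg Subtype.val hPQ
    apply Subtype.ext
    rw [hpP P, hpP Q, h1]

/-- **Comparable conjugates.** -/
theorem least_of_comparable (hPP : PP F) (hU : Unif F)
    (h : ∃ K : Subgroup G, F.mem K ∧ ∀ V : Subgroup G, F.mem V →
      ∃ D : Subgroup G, F.mem D ∧ D ≤ V ∧ ∀ g ∈ K, cj g D ≤ D ∨ D ≤ cj g D) :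
    ∃ E, F.mem E ∧ ∀ D, F.mem D → E ≤ D := by
  classical
  by_contra hcon
  push Not at hcon
  obtain ⟨K₀, hK₀, hs⟩ := h
  obtain ⟨E, hE, -, hEu⟩ := hU K₀ hK₀
  obtain ⟨D, hD, hDE, hcmp⟩ := hs E hE
  have huniv : ∀ V : Subgroup G, F.mem V → ∃ h ∈ K₀, ∀ x ∈ D, h * x * h⁻¹ ∈ V := by
    intro V hV
    obtain ⟨h, hh, hx⟩ := hEu V hV
    exact ⟨h, hh, fun x hx' => hx x (hDE hx')⟩
  obtain ⟨K₁, hK₁, -, hcode⟩ := coded_at hPP hK₀ hD huniv
  obtain ⟨h₀, hh₀, hx₀⟩ := huniv K₁ hK₁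
  -- any two conjugates are comparable
  have hcmp2 : ∀ g ∈ K₀, ∀ k ∈ K₀, cj g D ≤ cj k D ∨ cj k D ≤ cj g D := by
    intro g hg k hk
    rcases hcmp (k⁻¹ * g) (K₀.mul_mem (K₀.inv_mem hk) hg) with h1 | h1
    · left
      have := cj_mono k h1
      rwa [← cj_mul, mul_inv_cancel_left] at this
    · right
      have := cj_mono k h1
      rwa [← cj_mul, mul_inv_cancel_left] at this
  set K' : Subgroup G := cj h₀ D with hK'def
  have hK'F : F.mem K' := mem_of_cj h₀ hD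
  have hK'1 : K' ≤ K₁ := cj_le_of_forall hx₀
  -- every open subgroup of `K'` is a conjugate of `D`
  have hall : ∀ P : Subgroup G, F.mem P → P ≤ K' → ∃ h ∈ K₀, P = cj h D := by
    intro P hP hPK
    obtain ⟨h, hh, hPh⟩ := hcode P hP (hPK.trans hK'1)
    have hPe : P = K₁ ⊓ cj h D := by
      ext x
      rw [hPh x, Subgroup.mem_inf, mem_cj]
    rcases hcmp2 h hh h₀ hh₀ with h1 | h1
    · refine ⟨h, hh, le_antisymm (hPe.le.trans inf_le_right) ?_⟩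
      rw [hPe]
      exact le_inf (h1.trans hK'1) le_rfl
    · refine ⟨h₀, hh₀, le_antisymm hPK ?_⟩
      rw [hPe]
      exact le_inf hK'1 h1
  have hcc : ∀ P Q : Subgroup G, (∃ h ∈ K₀, P = cj h D) → (∃ h ∈ K₀, Q = cj h D) →
      P ≤ Q ∨ Q ≤ P := by
    rintro P Q ⟨h, hh, rfl⟩ ⟨k, hk, rfl⟩
    exact hcmp2 h hh k hk
  -- a jump
  obtain ⟨V, hV, hVK, Q, hQ, hVQ⟩ := tree_univ hU hcon hK'F
  have hVne : ∃ x ∈ K', x ∉ V := by
    by_contra hx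
    push Not at hx
    have h1 : Q (fun _ => false) < Q (fun _ => true) :=
      hQ _ _ 0 (fun m hm => absurd hm (Nat.not_lt_zero m)) rfl rfl
    have h2 : Q (fun _ => true) ≤ V := (hVQ _).2.trans hx
    exact absurd (h1.trans_le h2) (not_lt_of_ge (hVQ _).1)
  obtain ⟨x, hxK, hxV⟩ := hVne
  let M : Subgroup G := sSup {P | V ≤ P ∧ P ≤ K' ∧ x ∉ P}
  let M' : Subgroup G := sInf {P | V ≤ P ∧ P ≤ K' ∧ x ∈ P}
  have hopen : ∀ P : Subgroup G, V ≤ P → P ≤ K' → ∃ h ∈ K₀, P = cj h D :=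
    fun P h1 h2 => hall P (F.up hV h1) h2
  have hdir : DirectedOn (· ≤ ·) {P : Subgroup G | V ≤ P ∧ P ≤ K' ∧ x ∉ P} := by
    intro P hP R hR
    rcases hcc P R (hopen P hP.1 hP.2.1) (hopen R hR.1 hR.2.1) with h1 | h1
    · exact ⟨R, hR, h1, le_rfl⟩
    · exact ⟨P, hP, le_rfl, h1⟩
  have hVM : V ≤ M := le_sSup ⟨le_rfl, hVK, hxV⟩
  have hMK : M ≤ K' := sSup_le fun P hP => hP.2.1
  have hxM : x ∉ M := by
    intro hx
    have hne : {P : Subgroup G | V ≤ P ∧ P ≤ K' ∧ x ∉ P}.Nonempty := ⟨V, le_rfl, hVK, hxV⟩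
    obtain ⟨P, hP, hxP⟩ := (Subgroup.mem_sSup_of_directedOn hne hdir).1 hx
    exact hP.2.2 hxP
  have hVM' : V ≤ M' := le_sInf fun P hP => hP.1
  have hM'K : M' ≤ K' := sInf_le ⟨hVK, le_rfl, hxK⟩
  have hxM' : x ∈ M' := Subgroup.mem_sInf.2 fun P hP => hP.2.2
  have hjump : ∀ P : Subgroup G, V ≤ P → P ≤ K' → P ≤ M ∨ M' ≤ P := by
    intro P h1 h2
    by_cases hx : x ∈ P
    · exact Or.inr (sInf_le ⟨h1, h2, hx⟩)
    · exact Or.inl (le_sSup ⟨h1, h2, hx⟩)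
  have hMM' : M < M' := by
    refine lt_of_le_of_ne ?_ ?_
    · rcases hcc M M' (hopen M hVM hMK) (hopen M' hVM' hM'K) with h1 | h1
      · exact h1
      · exact absurd (h1 hxM') hxM
    · intro h1
      exact hxM (h1 ▸ hxM')
  -- a strictly decreasing sequence
  let f : ℕ → ℕ → Bool := fun n m => decide (m = n)
  have hdec : ∀ n, Q (f (n + 1)) < Q (f n) := by
    intro n
    refine hQ _ _ n ?_ ?_ ?_
    · intro m hm
      simp only [f]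
      rw [decide_eq_false (by omega), decide_eq_false (by omega)]
    · simp only [f]
      exact decide_eq_false (by omega)
    · simp [f]
  let W : Subgroup G := ⨅ n, Q (f n)
  have hVW : V ≤ W := le_iInf fun n => (hVQ _).1
  have hWK : W ≤ K' := (iInf_le _ 0).trans (hVQ _).2
  have hWlt : ∀ n, W < Q (f n) := fun n => (iInf_le _ (n + 1)).trans_lt (hdec n)
  obtain ⟨a, ha, hMa⟩ := hopen M hVM hMK
  obtain ⟨b, hb, hWb⟩ := hopen W hVW hWK
  obtain ⟨a', ha', hMa'⟩ := hopen M' hVM' hM'K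
  have hg : W = cj (b * a⁻¹) M := by
    rw [hMa, ← cj_mul, inv_mul_cancel_right, hWb]
  have hbaK : b * a⁻¹ ∈ K₀ := K₀.mul_mem hb (K₀.inv_mem ha)
  have key : ∀ n, cj (b * a⁻¹) M' ≤ Q (f n) := by
    intro n
    obtain ⟨q, hq, hQq⟩ := hopen (Q (f n)) (hVQ _).1 (hVQ _).2
    -- pull back
    have h1 : M < cj ((b * a⁻¹)⁻¹) (Q (f n)) := by
      have h2 := cj_lt (b * a⁻¹)⁻¹ (hWlt n)
      rwa [hg, ← cj_mul, inv_mul_cancel, cj_one] at h2
    have h3 : ∃ k ∈ K₀, cj ((b * a⁻¹)⁻¹) (Q (f n)) = cj k D :=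
      ⟨(b * a⁻¹)⁻¹ * q, K₀.mul_mem (K₀.inv_mem hbaK) hq, by rw [hQq, ← cj_mul]⟩
    have h4 : M' ≤ cj ((b * a⁻¹)⁻¹) (Q (f n)) := by
      rcases hcc M' _ ⟨a', ha', hMa'⟩ h3 with h5 | h5
      · exact h5
      · rcases hjump _ (hVM.trans h1.le) (h5.trans hM'K) with h6 | h6
        · exact absurd h6 (not_le_of_gt h1)
        · exact h6
    have h7 := cj_mono (b * a⁻¹) h4
    rwa [← cj_mul, mul_inv_cancel, cj_one] at h7
  have h8 : cj (b * a⁻¹) M' ≤ W := le_iInf key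
  rw [hg] at h8
  exact absurd ((cj_le_iff _).1 h8) (not_le_of_gt hMM')

end Vale.Agent.P323.H258
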