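import Vale.Agent.P323.H258.Fin

/-!
# Permutation models: infinite cyclic quotients of intersections of conjugates
-/

namespace Vale.Agent.P323.H258

open Vale.Agent.P323

universe u

variable {G : Type u} [Group G]

/-- `H` has a proper open normal subgroup -/
def Resid (F : NormalFilter G) (H : Subgroup G) : Prop :=
  ∃ N : Subgroup G, F.mem N ∧ N < H ∧ ∀ d ∈ H, ∀ x ∈ N, d * x * d⁻¹ ∈ N

/-- `H` has an open normal subgroup with infinite cyclic quotient -/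
def CycQuot (F : NormalFilter G) (H : Subgroup G) : Prop :=
  ∃ N : Subgroup G, F.mem N ∧ N ≤ H ∧ (∀ d ∈ H, ∀ x ∈ N, d * x * d⁻¹ ∈ N) ∧
    ∃ t ∈ H, (∀ x ∈ H, ∃ k : ℤ, x * (t ^ k)⁻¹ ∈ N) ∧ ∀ k : ℤ, t ^ k ∈ N → k = 0

/-- `H` is the union of a strictly increasing sequence of open subgroups -/
def IncUnion (F : NormalFilter G) (H : Subgroup G) : Prop :=
  ∃ U : ℕ → Subgroup G, StrictMono U ∧ (∀ n, F.mem (U n)) ∧ ∀ x, x ∈ H ↔ ∃ n, x ∈ U n

theorem IncUnion.cj {F : NormalFilter G} {H : Subgroup G} (h : IncUnion F H) (g : G) :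
    IncUnion F (P323.cj g H) := by
  obtain ⟨U, hU, hF, hx⟩ := h
  refine ⟨fun n => P323.cj g (U n), fun m n hmn => cj_lt g (hU hmn),
    fun n => mem_of_cj g (hF n), fun x => ?_⟩
  rw [mem_cj, hx]
  exact exists_congr fun n => mem_cj.symm

/-- below every open group there is a union of a strictly increasing sequence of open groups -/
theorem exists_inc {F : NormalFilter G} (hU : Unif F)
    (hcon : ∀ E, F.mem E → ∃ D, F.mem D ∧ ¬ E ≤ D) {H : Subgroup G} (hH : F.mem H) :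
    ∃ P : Subgroup G, F.mem P ∧ P ≤ H ∧ IncUnion F P := by
  obtain ⟨E, hE, hEH, hEu⟩ := hU H hH
  obtain ⟨V, hV, hEV⟩ := hcon E hE
  obtain ⟨g, hgH, hx⟩ := hEu (E ⊓ V) (F.inter hE hV)
  have hg : ∀ x ∈ E, g * x * g⁻¹ ∈ E := fun x hx' => (hx x hx').1
  obtain ⟨y, hy, hy'⟩ : ∃ y ∈ E, g⁻¹ * y * g ∉ E := by
    by_contra hcon2
    push Not at hcon2
    apply hEV
    intro y hy
    have h1 := (hx _ (hcon2 y hy)).2
    have e : g * (g⁻¹ * y * g) * g⁻¹ = y := by group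
    rwa [e] at h1
  have hm : ∀ (n : ℕ) (x : G), x ∈ P323.cj (g ^ n)⁻¹ E ↔ g ^ n * x * (g ^ n)⁻¹ ∈ E := by
    intro n x
    rw [mem_cj, inv_inv]
  refine ⟨LL E g hg, F.up hE (le_LL E g hg),
    (LL_le_MM E g hg 1).trans (MM_le hg hEH hgH 1), fun n => P323.cj (g ^ n)⁻¹ E,
    strictMono_nat_of_lt_succ fun n => ?_, fun n => mem_of_cj _ hE, fun x => ?_⟩
  · refine lt_of_le_not_ge ?_ ?_
    · intro x hx
      rw [hm] at hx ⊢
      have h1 := hg _ hx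
      have e : g * (g ^ n * x * (g ^ n)⁻¹) * g⁻¹ = g ^ (n + 1) * x * (g ^ (n + 1))⁻¹ := by
        rw [pow_succ']; group
      rwa [e] at h1
    · intro hle
      have h1 : (g ^ (n + 1))⁻¹ * y * g ^ (n + 1) ∈ P323.cj (g ^ (n + 1))⁻¹ E := by
        rw [hm]
        have e : g ^ (n + 1) * ((g ^ (n + 1))⁻¹ * y * g ^ (n + 1)) * (g ^ (n + 1))⁻¹ = y := by
          group
        rwa [e]
      have h2 := hle h1
      rw [hm] at h2
      apply hy'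
      have e : g ^ n * ((g ^ (n + 1))⁻¹ * y * g ^ (n + 1)) * (g ^ n)⁻¹ = g⁻¹ * y * g := by
        rw [pow_succ]; group
      rwa [e] at h2
  · exact exists_congr fun n => (hm n x).symm

theorem cj_le_cj_iff' {g : G} {A B : Subgroup G} : A ≤ cj g B ↔ cj g⁻¹ A ≤ B := by
  constructor
  · intro h
    have := cj_mono g⁻¹ h
    rwa [← cj_mul, inv_mul_cancel, cj_one] at this
  · intro h
    have := cj_mono g h
    rwa [← cj_mul, mul_inv_cancel, cj_one] at this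

theorem Resid.cj {F : NormalFilter G} {H : Subgroup G} (h : Resid F H) (g : G) :
    Resid F (P323.cj g H) := by
  obtain ⟨N, hN, hlt, hn⟩ := h
  refine ⟨P323.cj g N, mem_of_cj g hN, cj_lt g hlt, ?_⟩
  intro d hd x hx
  rw [mem_cj] at hd hx ⊢
  have h1 := hn _ hd _ hx
  have e : g⁻¹ * d * g * (g⁻¹ * x * g) * (g⁻¹ * d * g)⁻¹ = g⁻¹ * (d * x * d⁻¹) * g := by group
  rwa [e] at h1

theorem CycQuot.cj {F : NormalFilter G} {H : Subgroup G} (h : CycQuot F H) (g : G) :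
    CycQuot F (P323.cj g H) := by
  obtain ⟨N, hN, hle, hn, t, ht, hg, h0⟩ := h
  refine ⟨P323.cj g N, mem_of_cj g hN, cj_mono g hle, ?_, g * t * g⁻¹, ?_, ?_, ?_⟩
  · intro d hd x hx
    rw [mem_cj] at hd hx ⊢
    have h1 := hn _ hd _ hx
    have e : g⁻¹ * d * g * (g⁻¹ * x * g) * (g⁻¹ * d * g)⁻¹ = g⁻¹ * (d * x * d⁻¹) * g := by group
    rwa [e] at h1
  · rw [mem_cj]
    have e : g⁻¹ * (g * t * g⁻¹) * g = t := by group
    rwa [e]
  · intro x hx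
    rw [mem_cj] at hx
    obtain ⟨k, hk⟩ := hg _ hx
    refine ⟨k, ?_⟩
    rw [mem_cj, conj_zpow]
    have e : g⁻¹ * (x * (g * t ^ k * g⁻¹)⁻¹) * g = g⁻¹ * x * g * (t ^ k)⁻¹ := by group
    rwa [e]
  · intro k hk
    rw [mem_cj, conj_zpow] at hk
    have e : g⁻¹ * (g * t ^ k * g⁻¹) * g = t ^ k := by group
    rw [e] at hk
    exact h0 k hk

theorem not_cycQuot_of_perfect {F : NormalFilter G} {H : Subgroup G} (hp : ⁅H, H⁆ = H) :
    ¬ CycQuot F H := by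
  rintro ⟨N, -, hle, hn, t, ht, hg, h0⟩
  have hc : ⁅H, H⁆ ≤ N := by
    rw [Subgroup.commutator_le]
    intro x hx y hy
    obtain ⟨a, ha⟩ := hg x hx
    obtain ⟨b, hb⟩ := hg y hy
    have h1 := hn _ (H.zpow_mem ht a) _ hb
    have h2 := hn _ (H.zpow_mem ht b) _ (N.inv_mem ha)
    have h3 := N.mul_mem (N.mul_mem (N.mul_mem ha h1) h2) (N.inv_mem hb)
    have e : x * (t ^ a)⁻¹ * (t ^ a * (y * (t ^ b)⁻¹) * (t ^ a)⁻¹) *
        (t ^ b * (x * (t ^ a)⁻¹)⁻¹ * (t ^ b)⁻¹) * (y * (t ^ b)⁻¹)⁻¹ =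
        x * y * (t ^ b)⁻¹ * (t ^ a)⁻¹ * t ^ b * t ^ a * x⁻¹ * y⁻¹ := by group
    rw [e] at h3
    have e2 : (t ^ b)⁻¹ * (t ^ a)⁻¹ * t ^ b * t ^ a = 1 := by
      rw [← zpow_neg, ← zpow_neg, ← zpow_add, ← zpow_add, ← zpow_add]
      have : -b + -a + b + a = 0 := by ring
      rw [this, zpow_zero]
    have e3 : x * y * (t ^ b)⁻¹ * (t ^ a)⁻¹ * t ^ b * t ^ a * x⁻¹ * y⁻¹ =
        x * y * ((t ^ b)⁻¹ * (t ^ a)⁻¹ * t ^ b * t ^ a) * x⁻¹ * y⁻¹ := by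
      simp only [mul_assoc]
    rw [e3, e2, mul_one] at h3
    rw [commutatorElement_def]
    exact h3
  have h1 : t ^ (1 : ℤ) ∈ N := by
    rw [zpow_one]
    rw [hp] at hc
    exact hc ht
  exact one_ne_zero (h0 1 h1)

/-- **Dichotomy for intersections of conjugates.** -/
theorem least_of_dich {F : NormalFilter G} (hPP : PP F) (hU : Unif F)
    (h : ∃ K : Subgroup G, F.mem K ∧ ∀ V : Subgroup G, F.mem V →
      ∃ D : Subgroup G, F.mem D ∧ D ≤ V ∧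
        ((∀ g ∈ K, Resid F (D ⊓ cj g D)) ∨ (∀ g ∈ K, ¬ CycQuot F (D ⊓ cj g D)) ∨
          ∀ g ∈ K, ¬ IncUnion F (D ⊓ cj g D))) :
    ∃ E, F.mem E ∧ ∀ D, F.mem D → E ≤ D := by
  by_contra hcon
  push Not at hcon
  obtain ⟨K₀, hK₀, hs⟩ := h
  obtain ⟨E, hE, -, hEu⟩ := hU K₀ hK₀
  obtain ⟨D, hD, hDE, hint⟩ := hs E hE
  have huniv : ∀ V : Subgroup G, F.mem V → ∃ h ∈ K₀, ∀ x ∈ D, h * x * h⁻¹ ∈ V := by
    intro V hV
    obtain ⟨h, hh, hx⟩ := hEu V hV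
    exact ⟨h, hh, fun x hx' => hx x (hDE hx')⟩
  obtain ⟨K₁, hK₁, -, hcode⟩ := coded_at hPP hK₀ hD huniv
  obtain ⟨h₀, hh₀, hx₀⟩ := huniv K₁ hK₁
  have hK'F : F.mem (cj h₀ D) := mem_of_cj h₀ hD
  have hK'1 : cj h₀ D ≤ K₁ := cj_le_of_forall hx₀
  have hcjinf : ∀ (g : G) (A B : Subgroup G), cj g (A ⊓ B) = cj g A ⊓ cj g B := by
    intro g A B
    ext x
    simp only [mem_cj, Subgroup.mem_inf]
  have hall : ∀ P : Subgroup G, F.mem P → P ≤ cj h₀ D →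
      ∃ g ∈ K₀, P = cj h₀ (D ⊓ cj g D) := by
    intro P hP hPK
    obtain ⟨h, hh, hPh⟩ := hcode P hP (hPK.trans hK'1)
    have hPe : P = K₁ ⊓ cj h D := by
      ext x
      rw [hPh x, Subgroup.mem_inf, mem_cj]
    have hPe2 : P = cj h₀ D ⊓ cj h D := by
      refine le_antisymm (le_inf hPK (hPe.le.trans inf_le_right)) ?_
      rw [hPe]
      exact inf_le_inf_right _ hK'1
    refine ⟨h₀⁻¹ * h, K₀.mul_mem (K₀.inv_mem hh₀) hh, ?_⟩
    rw [hcjinf, ← cj_mul, mul_inv_cancel_left, hPe2]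
  have hback : ∀ A : Subgroup G, cj h₀⁻¹ (cj h₀ A) = A := by
    intro A
    rw [← cj_mul, inv_mul_cancel, cj_one]
  rcases hint with hint | hint | hint
  · obtain ⟨R, hR, hRK, hconn⟩ := exists_conn hU hK'F
    obtain ⟨g, hg, hRg⟩ := hall R hR hRK
    obtain ⟨N, hN, hlt, hn⟩ := (hint g hg).cj h₀
    rw [← hRg] at hlt hn
    exact absurd (hconn N hN hlt.le fun r hr => cj_le_of_forall fun x hx => hn r hr x hx)
      (not_le_of_gt hlt)
  · obtain ⟨P, N, hP, hPK, hN, hNP, hn, t, ht, htg, h0⟩ := exists_cyc' hU hcon hK'F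
    obtain ⟨g, hg, hPg⟩ := hall P hP hPK
    have h1 : CycQuot F P := ⟨N, hN, hNP, hn, t, ht, htg, h0⟩
    have h2 := h1.cj h₀⁻¹
    rw [hPg, hback] at h2
    exact hint g hg h2
  · obtain ⟨P, hP, hPK, h1⟩ := exists_inc hU hcon hK'F
    obtain ⟨g, hg, hPg⟩ := hall P hP hPK
    have h2 := h1.cj h₀⁻¹
    rw [hPg, hback] at h2
    exact hint g hg h2

theorem woc_inc (F : NormalFilter G)
    (h : ∃ K : Subgroup G, F.mem K ∧ ∀ P : Subgroup G, F.mem P → P ≤ K → ¬ IncUnion F P) :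
    (WOChoice F ↔ AC F) ∧ (PP F ↔ AC F) := by
  refine fin_least fun hU => ?_
  by_contra hcon
  push Not at hcon
  obtain ⟨K, hK, h⟩ := h
  obtain ⟨P, hP, hPK, hi⟩ := exists_inc hU hcon hK
  exact h P hP hPK hi

theorem pp_dich (F : NormalFilter G)
    (h : ∃ K : Subgroup G, F.mem K ∧ ∀ V : Subgroup G, F.mem V →
      ∃ D : Subgroup G, F.mem D ∧ D ≤ V ∧
        ((∀ g ∈ K, Resid F (D ⊓ cj g D)) ∨ (∀ g ∈ K, ¬ CycQuot F (D ⊓ cj g D)) ∨
          ∀ g ∈ K, ¬ IncUnion F (D ⊓ cj g D))) :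
    PP F ↔ AC F := by
  refine ⟨fun hPP => ?_, fun hAC => pp_of_ac hAC⟩
  obtain ⟨E, hE, hl⟩ := least_of_dich hPP (fun H hH => univ hPP H hH) h
  exact ac_of_least hE hl

/-- conjugates of small groups closed under intersections are a special case -/
theorem pp_inter' (F : NormalFilter G)
    (h : ∃ K : Subgroup G, F.mem K ∧ ∀ V : Subgroup G, F.mem V →
      ∃ D : Subgroup G, F.mem D ∧ D ≤ V ∧ ∀ g ∈ K, ∃ k : G, D ⊓ cj g D = cj k D) :
    PP F ↔ AC F := by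
  apply pp_dich F
  obtain ⟨K, hK, h⟩ := h
  refine ⟨K, hK, fun V hV => ?_⟩
  obtain ⟨D, hD, hDV, h⟩ := h V hV
  refine ⟨D, hD, hDV, ?_⟩
  by_cases hr : Resid F D
  · left
    intro g hg
    obtain ⟨k, hk⟩ := h g hg
    rw [hk]
    exact hr.cj k
  · right; left
    intro g hg hc
    obtain ⟨k, hk⟩ := h g hg
    rw [hk] at hc
    have h1 := hc.cj k⁻¹
    rw [← cj_mul, inv_mul_cancel, cj_one] at h1
    obtain ⟨N, hN, hle, hn, t, ht, htg, h0⟩ := h1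
    refine hr ⟨N, hN, lt_of_le_of_ne hle ?_, hn⟩
    rintro rfl
    exact one_ne_zero (h0 1 (by rwa [zpow_one]))

/-- perfect stabilizers of supports, stabilizers of uncountable cofinality -/
theorem pp_perfect {A : Type u} [MulAction G A] (I : SuppIdeal G A)
    (h : ∃ e₀, I.mem e₀ ∧ ∀ e, I.mem e → ∃ e', I.mem e' ∧ e ⊆ e' ∧
      ((∀ g : G, (∀ a ∈ e₀, g • a = a) → ∀ H : Subgroup G,
        (∀ k, k ∈ H ↔ (∀ a ∈ e', k • a = a) ∧ ∀ a ∈ e', k • g • a = g • a) → ⁅H, H⁆ = H) ∨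
      ∀ g : G, (∀ a ∈ e₀, g • a = a) →
        ¬ ∃ U : ℕ → Subgroup G, StrictMono U ∧
          ∀ k, ((∀ a ∈ e', k • a = a) ∧ ∀ a ∈ e', k • g • a = g • a) ↔ ∃ n, k ∈ U n)) :
    PP (suppFilter I) ↔ AC (suppFilter I) := by
  apply pp_dich
  obtain ⟨e₀, he₀, h⟩ := h
  refine ⟨fx e₀, ⟨e₀, he₀, fun g hg => hg⟩, ?_⟩
  rintro V ⟨e, he, hV⟩
  obtain ⟨e', he', hee, hp⟩ := h e he
  have hmem : ∀ g k : G, k ∈ fx e' ⊓ cj g (fx e') ↔
      (∀ a ∈ e', k • a = a) ∧ ∀ a ∈ e', k • g • a = g • a := by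
    intro g k
    rw [Subgroup.mem_inf, mem_cj]
    refine and_congr_right fun _ => ?_
    constructor
    · intro h1 a ha
      have h2 := h1 a ha
      rw [mul_smul, mul_smul, inv_smul_eq_iff] at h2
      exact h2
    · intro h1 a ha
      rw [mul_smul, mul_smul, inv_smul_eq_iff]
      exact h1 a ha
  refine ⟨fx e', ⟨e', he', fun g hg => hg⟩, fun g hg => hV g fun a ha => hg a (hee ha), ?_⟩
  right
  rcases hp with hp | hp
  · left
    intro g hg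
    exact not_cycQuot_of_perfect (hp g hg _ (hmem g))
  · right
    rintro g hg ⟨U, hU, -, hx⟩
    exact hp g hg ⟨U, hU, fun k => by rw [← hmem g k, hx k]⟩

end Vale.Agent.P323.H258
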