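import Vale.Agent.P323.H258.Count
import Vale.Agent.P323.Grp

/-!
# Permutation models: conjugates closed under intersections
-/

namespace Vale.Agent.P323.H258

open Vale.Agent.P323

universe u

variable {G : Type u} [Group G] {F : NormalFilter G}

/-- the intersection of the open normal subgroups of `H` -/
def core (F : NormalFilter G) (H : Subgroup G) : Subgroup G :=
  sInf {N | F.mem N ∧ N ≤ H ∧ ∀ k ∈ H, cj k N ≤ N}

theorem core_le {H : Subgroup G} (hH : F.mem H) : core F H ≤ H :=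
  sInf_le ⟨hH, le_rfl, fun _ hk => (cj_self hk).le⟩

theorem core_norm {H : Subgroup G} : ∀ k ∈ H, cj k (core F H) ≤ core F H := by
  intro k hk
  refine le_sInf fun N hN => ?_
  exact (cj_mono k (sInf_le hN)).trans (hN.2.2 k hk)

theorem core_mem (hU : Unif F) {H : Subgroup G} (hH : F.mem H) : F.mem (core F H) := by
  obtain ⟨E, hE, -, hEu⟩ := hU H hH
  refine F.up hE (le_sInf fun N hN => ?_)
  obtain ⟨h, hh, hx⟩ := hEu N hN.1
  have h1 : cj h E ≤ N := cj_le_of_forall hx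
  have h2 := cj_mono h⁻¹ h1
  rw [← cj_mul, inv_mul_cancel, cj_one] at h2
  exact h2.trans (hN.2.2 _ (H.inv_mem hh))

/-- below every open group there is an open group without proper open normal subgroups -/
theorem exists_conn (hU : Unif F) {H : Subgroup G} (hH : F.mem H) :
    ∃ R : Subgroup G, F.mem R ∧ R ≤ H ∧
      ∀ N : Subgroup G, F.mem N → N ≤ R → (∀ r ∈ R, cj r N ≤ N) → R ≤ N := by
  have hR := core_mem hU hH
  have hR2 := core_mem hU hR
  refine ⟨core F H, hR, core_le hH, ?_⟩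
  intro N hN hNR hn
  have h1 : core F (core F H) ≤ N := sInf_le ⟨hN, hNR, hn⟩
  refine le_trans (sInf_le ⟨hR2, (core_le hR).trans (core_le hH), ?_⟩) h1
  intro k hk
  refine le_sInf fun N' hN' => ?_
  have h2 : core F (core F H) ≤ cj k⁻¹ N' := by
    refine sInf_le ⟨mem_of_cj _ hN'.1, ?_, ?_⟩
    · exact (cj_mono _ hN'.2.1).trans (core_norm _ (H.inv_mem hk))
    · intro r hr
      have h3 : k * r * k⁻¹ ∈ core F H := by
        apply core_norm k hk
        rw [mem_cj]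
        have e : k⁻¹ * (k * r * k⁻¹) * k = r := by group
        rwa [e]
      have h4 := cj_mono k⁻¹ (hN'.2.2 _ h3)
      rw [← cj_mul] at h4 ⊢
      have e : k⁻¹ * (k * r * k⁻¹) = r * k⁻¹ := by group
      rwa [e] at h4
  have h5 := cj_mono k h2
  rwa [← cj_mul, mul_inv_cancel, cj_one] at h5

/-- below every open group there is an open group with a proper open normal subgroup -/
theorem exists_cyc (hU : Unif F) (hcon : ∀ E, F.mem E → ∃ D, F.mem D ∧ ¬ E ≤ D)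
    {H : Subgroup G} (hH : F.mem H) :
    ∃ P N : Subgroup G, F.mem P ∧ P ≤ H ∧ F.mem N ∧ N ≤ P ∧ (∀ p ∈ P, cj p N ≤ N) ∧ ¬ P ≤ N := by
  obtain ⟨E, hE, hEH, hEu⟩ := hU H hH
  obtain ⟨V, hV, hEV⟩ := hcon E hE
  obtain ⟨g, hgH, hx⟩ := hEu (E ⊓ V) (F.inter hE hV)
  have hg : ∀ x ∈ E, g * x * g⁻¹ ∈ E := fun x hx' => (hx x hx').1
  obtain ⟨y, hy, hy'⟩ : ∃ y ∈ E, g⁻¹ * y * g ∉ E := by
    by_contra hcon2
    push Not at hcon2
    apply hEV
    intro y hy
    have h1 := (hx _ (hcon2 y hy)).2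
    have e : g * (g⁻¹ * y * g) * g⁻¹ = y := by group
    rwa [e] at h1
  have hL : F.mem (LL E g hg) := F.up hE (le_LL E g hg)
  refine ⟨MM E g hg 1, LL E g hg, F.up hL (LL_le_MM E g hg 1), MM_le hg hEH hgH 1, hL,
    LL_le_MM E g hg 1, ?_, ?_⟩
  · rintro p ⟨k, hk⟩ x hx
    rw [mem_cj] at hx
    rw [one_mul] at hk
    have h1 := conj_LL E g hg k hx
    have h2 := (LL E g hg).mul_mem ((LL E g hg).mul_mem hk h1) ((LL E g hg).inv_mem hk)
    have e : p * (g ^ k)⁻¹ * (g ^ k * (p⁻¹ * x * p) * (g ^ k)⁻¹) * (p * (g ^ k)⁻¹)⁻¹ = x := by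
      group
    rwa [e] at h2
  · intro hle
    have h1 : g ∈ MM E g hg 1 := ⟨1, by simp⟩
    have h2 : g ^ (1 : ℤ) ∈ LL E g hg := by simpa using hle h1
    exact one_ne_zero (zpow_LL hg hy hy' h2)

/-- **Conjugates closed under intersections.** -/
theorem least_of_inter (hPP : PP F) (hU : Unif F)
    (h : ∃ K : Subgroup G, F.mem K ∧ ∀ V : Subgroup G, F.mem V →
      ∃ D : Subgroup G, F.mem D ∧ D ≤ V ∧ ∀ g ∈ K, ∃ k ∈ K, D ⊓ cj g D = cj k D) :
    ∃ E, F.mem E ∧ ∀ D, F.mem D → E ≤ D := by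
  by_contra hcon
  push Not at hcon
  obtain ⟨K₀, hK₀, hs⟩ := h
  obtain ⟨E, hE, -, hEu⟩ := hU K₀ hK₀
  obtain ⟨D, hD, hDE, hint⟩ := hs E hE
  have huniv : ∀ V : Subgroup G, F.mem V → ∃ h ∈ K₀, ∀ x ∈ D, h * x * h⁻¹ ∈ V := by
    intro V hV
    obtain ⟨h, hh, hx⟩ := hEu V hV
    exact ⟨h, hh, fun x hx' => hx x (hDE hx')⟩
  obtain ⟨K₁, hK₁, -, hcode⟩ := coded_at hPP hK₀ hD huniv
  obtain ⟨h₀, hh₀, hx₀⟩ := huniv K₁ hK₁
  have hK'F : F.mem (cj h₀ D) := mem_of_cj h₀ hD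
  have hK'1 : cj h₀ D ≤ K₁ := cj_le_of_forall hx₀
  have hcjinf : ∀ (g : G) (A B : Subgroup G), cj g (A ⊓ B) = cj g A ⊓ cj g B := by
    intro g A B
    ext x
    simp only [mem_cj, Subgroup.mem_inf]
  have hall : ∀ P : Subgroup G, F.mem P → P ≤ cj h₀ D → ∃ h ∈ K₀, P = cj h D := by
    intro P hP hPK
    obtain ⟨h, hh, hPh⟩ := hcode P hP (hPK.trans hK'1)
    have hPe : P = K₁ ⊓ cj h D := by
      ext x
      rw [hPh x, Subgroup.mem_inf, mem_cj]
    have hPe2 : P = cj h₀ D ⊓ cj h D := by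
      refine le_antisymm (le_inf hPK (hPe.le.trans inf_le_right)) ?_
      rw [hPe]
      exact inf_le_inf_right _ hK'1
    obtain ⟨k, hk, hkD⟩ := hint (h₀⁻¹ * h) (K₀.mul_mem (K₀.inv_mem hh₀) hh)
    refine ⟨h₀ * k, K₀.mul_mem hh₀ hk, ?_⟩
    rw [cj_mul, ← hkD, hcjinf, ← cj_mul, mul_inv_cancel_left, hPe2]
  obtain ⟨R, hR, hRK, hconn⟩ := exists_conn hU hK'F
  obtain ⟨P, N, hP, hPK, hN, hNP, hnorm, hne⟩ := exists_cyc hU hcon hK'F
  obtain ⟨a, ha, hRa⟩ := hall R hR hRK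
  obtain ⟨b, hb, hPb⟩ := hall P hP hPK
  have hPR : cj (a * b⁻¹) P = R := by
    rw [hPb, ← cj_mul, inv_mul_cancel_right, hRa]
  have h1 : R ≤ cj (a * b⁻¹) N := by
    refine hconn _ (mem_of_cj _ hN) ?_ ?_
    · rw [← hPR]
      exact cj_mono _ hNP
    · intro r hr
      rw [← hPR, mem_cj] at hr
      have h2 := cj_mono (a * b⁻¹) (hnorm _ hr)
      rw [← cj_mul] at h2 ⊢
      have e : a * b⁻¹ * ((a * b⁻¹)⁻¹ * r * (a * b⁻¹)) = r * (a * b⁻¹) := by group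
      rwa [e] at h2
  rw [← hPR] at h1
  exact hne ((cj_le_iff _).1 h1)

end Vale.Agent.P323.H258
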