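import Vale.Agent.P323.H258.Supp
import Vale.Agent.P323.H258.Inter
import Vale.Agent.P323.N.Fin

/-!
# Permutation models: final forms
-/

namespace Vale.Agent.P323.H258

open Vale.Agent.P323

universe u

theorem cj_eq_iff {G : Type u} [Group G] {L D : Subgroup G} {h : G} :
    L = cj h D ↔ ∀ x, x ∈ L ↔ h⁻¹ * x * h ∈ D := by
  constructor
  · rintro rfl x
    exact mem_cj
  · intro h1
    ext x
    rw [h1 x, mem_cj]

theorem pp_count {G : Type u} [Group G] (F : NormalFilter G)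
    (h : ∃ K : Subgroup G, F.mem K ∧ ∀ V₀ : Subgroup G, F.mem V₀ →
      ∃ D : Subgroup G, F.mem D ∧ D ≤ V₀ ∧ ∀ K₁ : Subgroup G, F.mem K₁ →
        ∃ V : Subgroup G, F.mem V ∧
          Cardinal.mk {L : Subgroup G // V ≤ L ∧ ∃ h ∈ K, L = cj h D} <
            Cardinal.mk {P : Subgroup G // V ≤ P ∧ P ≤ K₁}) : PP F ↔ AC F := by
  refine ⟨fun hPP => ?_, fun hAC => pp_of_ac hAC⟩
  exact (least_of_count hPP (fun H hH => univ hPP H hH) h).elim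

theorem pp_count' {G : Type u} [Group G] (F : NormalFilter G)
    (h : ∃ K : Subgroup G, F.mem K ∧ ∀ V₀ : Subgroup G, F.mem V₀ →
      ∃ D : Subgroup G, F.mem D ∧ D ≤ V₀ ∧ ∀ K₁ : Subgroup G, F.mem K₁ →
        ∃ V : Subgroup G, F.mem V ∧
          Cardinal.mk {L : Subgroup G // V ≤ L ∧ ∃ h ∈ K, ∀ x, x ∈ L ↔ h⁻¹ * x * h ∈ D} <
            Cardinal.mk {P : Subgroup G // V ≤ P ∧ P ≤ K₁}) : PP F ↔ AC F := by
  apply pp_count F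
  obtain ⟨K, hK, h⟩ := h
  refine ⟨K, hK, fun V₀ hV₀ => ?_⟩
  obtain ⟨D, hD, hDV, h⟩ := h V₀ hV₀
  refine ⟨D, hD, hDV, fun K₁ hK₁ => ?_⟩
  obtain ⟨V, hV, hlt⟩ := h K₁ hK₁
  refine ⟨V, hV, ?_⟩
  have e : ∀ L : Subgroup G, (V ≤ L ∧ ∃ h ∈ K, L = cj h D) ↔
      (V ≤ L ∧ ∃ h ∈ K, ∀ x, x ∈ L ↔ h⁻¹ * x * h ∈ D) := fun L =>
    and_congr_right fun _ => exists_congr fun k => and_congr_right fun _ => cj_eq_iff
  rwa [show {L : Subgroup G // V ≤ L ∧ ∃ h ∈ K, L = cj h D} =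
    {L : Subgroup G // V ≤ L ∧ ∃ h ∈ K, ∀ x, x ∈ L ↔ h⁻¹ * x * h ∈ D} from
      congrArg Subtype (funext fun L => propext (e L))]

theorem pp_inter {G : Type u} [Group G] (F : NormalFilter G)
    (h : ∃ K : Subgroup G, F.mem K ∧ ∀ V : Subgroup G, F.mem V →
      ∃ D : Subgroup G, F.mem D ∧ D ≤ V ∧ ∀ g ∈ K, ∃ k ∈ K,
        ∀ x, x ∈ D ∧ g⁻¹ * x * g ∈ D ↔ k⁻¹ * x * k ∈ D) : PP F ↔ AC F := by
  refine ⟨fun hPP => ?_, fun hAC => pp_of_ac hAC⟩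
  obtain ⟨E, hE, hl⟩ := least_of_inter hPP (fun H hH => univ hPP H hH) (by
    obtain ⟨K, hK, h⟩ := h
    refine ⟨K, hK, fun V hV => ?_⟩
    obtain ⟨D, hD, hDV, h⟩ := h V hV
    refine ⟨D, hD, hDV, fun g hg => ?_⟩
    obtain ⟨k, hk, hx⟩ := h g hg
    refine ⟨k, hk, ?_⟩
    ext x
    rw [Subgroup.mem_inf, mem_cj, mem_cj]
    exact hx x)
  exact ac_of_least hE hl

theorem woc_resid {G : Type u} [Group G] (F : NormalFilter G)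
    (h : ∃ K : Subgroup G, F.mem K ∧ ∀ D : Subgroup G, F.mem D → D ≤ K →
      (∃ V : Subgroup G, F.mem V ∧ ¬ D ≤ V) →
      ∃ N : Subgroup G, F.mem N ∧ N < D ∧ ∀ d ∈ D, ∀ x ∈ N, d * x * d⁻¹ ∈ N) :
    (WOChoice F ↔ AC F) ∧ (PP F ↔ AC F) := by
  refine fin_least fun hU => ?_
  by_contra hcon
  push Not at hcon
  obtain ⟨K, hK, h⟩ := h
  obtain ⟨R, hR, hRK, hc⟩ := exists_conn hU hK
  obtain ⟨N, hN, hlt, hn⟩ := h R hR hRK (hcon R hR)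
  refine absurd (hc N hN hlt.le fun r hr => ?_) (not_le_of_gt hlt)
  exact cj_le_of_forall fun x hx => hn r hr x hx

/-- strong form of `exists_cyc`: the quotient is infinite cyclic -/
theorem exists_cyc' {G : Type u} [Group G] {F : NormalFilter G} (hU : Unif F)
    (hcon : ∀ E, F.mem E → ∃ D, F.mem D ∧ ¬ E ≤ D) {H : Subgroup G} (hH : F.mem H) :
    ∃ P N : Subgroup G, F.mem P ∧ P ≤ H ∧ F.mem N ∧ N ≤ P ∧ (∀ p ∈ P, ∀ x ∈ N, p * x * p⁻¹ ∈ N) ∧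
      ∃ g ∈ P, (∀ x ∈ P, ∃ k : ℤ, x * (g ^ k)⁻¹ ∈ N) ∧ ∀ k : ℤ, g ^ k ∈ N → k = 0 := by
  obtain ⟨E, hE, hEH, hEu⟩ := hU H hH
  obtain ⟨V, hV, hEV⟩ := hcon E hE
  obtain ⟨g, hgH, hx⟩ := hEu (E ⊓ V) (F.inter hE hV)
  have hg : ∀ x ∈ E, g * x * g⁻¹ ∈ E := fun x hx' => (hx x hx').1
  obtain ⟨y, hy, hy'⟩ : ∃ y ∈ E, g⁻¹ * y * g ∉ E := by
    by_contra hcon2
    push Not at hcon2
    apply hEV
    intro y hy
    have h1 := (hx _ (hcon2 y hy)).2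
    have e : g * (g⁻¹ * y * g) * g⁻¹ = y := by group
    rwa [e] at h1
  have hL : F.mem (LL E g hg) := F.up hE (le_LL E g hg)
  refine ⟨MM E g hg 1, LL E g hg, F.up hL (LL_le_MM E g hg 1), MM_le hg hEH hgH 1, hL,
    LL_le_MM E g hg 1, ?_, g, ⟨1, by simp⟩, ?_, fun k hk => zpow_LL hg hy hy' hk⟩
  · rintro p ⟨k, hk⟩ x hx
    rw [one_mul] at hk
    have h1 := conj_LL E g hg k hx
    have h2 := (LL E g hg).mul_mem ((LL E g hg).mul_mem hk h1) ((LL E g hg).inv_mem hk)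
    have e : p * (g ^ k)⁻¹ * (g ^ k * x * (g ^ k)⁻¹) * (p * (g ^ k)⁻¹)⁻¹ = p * x * p⁻¹ := by
      group
    rwa [e] at h2
  · rintro x ⟨k, hk⟩
    exact ⟨k, by rwa [one_mul] at hk⟩

theorem woc_cyc {G : Type u} [Group G] (F : NormalFilter G)
    (h : ∃ K : Subgroup G, F.mem K ∧ ∀ P N : Subgroup G, F.mem P → P ≤ K → F.mem N → N ≤ P →
      (∀ p ∈ P, ∀ x ∈ N, p * x * p⁻¹ ∈ N) →
      ¬ ∃ g ∈ P, (∀ x ∈ P, ∃ k : ℤ, x * (g ^ k)⁻¹ ∈ N) ∧ ∀ k : ℤ, g ^ k ∈ N → k = 0) :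
    (WOChoice F ↔ AC F) ∧ (PP F ↔ AC F) := by
  refine fin_least fun hU => ?_
  by_contra hcon
  push Not at hcon
  obtain ⟨K, hK, h⟩ := h
  obtain ⟨P, N, hP, hPK, hN, hNP, hn, hg⟩ := exists_cyc' hU hcon hK
  exact h P N hP hPK hN hNP hn hg

end Vale.Agent.P323.H258
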