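import Vale.Agent.P323.H258.Count
import Vale.Agent.P323.N.Fin

/-!
# Permutation models: the counting criterion for models given by supports
-/

namespace Vale.Agent.P323.H258

open Vale.Agent.P323

universe u

/-- copies of `e` (moved by elements of `G` fixing `e₀` pointwise) among the atoms fixed by the
pointwise stabilizer of `v` -/
abbrev Copies (G : Type u) {A : Type u} [Group G] [MulAction G A] (e₀ e v : Set A) : Type u :=
  {f : e → A // (∃ g : G, (∀ b ∈ e₀, g • b = b) ∧ ∀ b : e, f b = g • (b : A)) ∧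
    ∀ b : e, ∀ k : G, (∀ a ∈ v, k • a = a) → k • f b = f b}

/-- definably closed sets of atoms between `e₁` and the set of atoms fixed by the pointwise
stabilizer of `v` -/
abbrev Closed (G : Type u) {A : Type u} [Group G] [MulAction G A] (e₁ v : Set A) : Type u :=
  {T : Set A // e₁ ⊆ T ∧ (∀ a ∈ T, ∀ k : G, (∀ b ∈ v, k • b = b) → k • a = a) ∧
    ∀ a, (∀ k : G, (∀ b ∈ T, k • b = b) → k • a = a) → a ∈ T}

variable {G A : Type u} [Group G] [MulAction G A]

theorem mk_conj_le (e₀ e v : Set A) :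
    Cardinal.mk {L : Subgroup G // fx v ≤ L ∧ ∃ h ∈ (fx e₀ : Subgroup G), L = cj h (fx e)} ≤
      Cardinal.mk (Copies G e₀ e v) := by
  have hmem : ∀ L : {L : Subgroup G // fx v ≤ L ∧ ∃ h ∈ (fx e₀ : Subgroup G), L = cj h (fx e)},
      ∃ h : G, h ∈ (fx e₀ : Subgroup G) ∧ L.1 = cj h (fx e) := fun L => by
    obtain ⟨h, hh, hL⟩ := L.2.2
    exact ⟨h, hh, hL⟩
  choose hc hhc hLc using hmem
  refine Cardinal.mk_le_of_injective
    (f := fun L => (⟨fun b => hc L • (b : A), ⟨hc L, hhc L, fun b => rfl⟩, ?_⟩ :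
      Copies G e₀ e v)) ?_
  · intro a k hk
    have h1 : k ∈ L.1 := L.2.1 hk
    rw [hLc L, mem_cj] at h1
    have h2 := h1 a a.2
    rw [mul_smul, mul_smul, inv_smul_eq_iff] at h2
    exact h2
  · intro L L' hLL
    apply Subtype.ext
    rw [hLc L, hLc L']
    have h1 : ∀ a ∈ e, hc L • a = hc L' • a := fun a ha =>
      congrFun (congrArg Subtype.val hLL) ⟨a, ha⟩
    have key : ∀ (h h' : G), (∀ a ∈ e, h • a = h' • a) → cj h (fx e) ≤ cj h' (fx e) := by
      intro h h' hh x hx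
      rw [mem_cj] at hx ⊢
      intro a ha
      have h2 := hx a ha
      rw [mul_smul, mul_smul, inv_smul_eq_iff] at h2 ⊢
      rw [← hh a ha]
      exact h2
    exact le_antisymm (key _ _ h1) (key _ _ fun a ha => (h1 a ha).symm)

theorem mk_closed_le (e₁ v : Set A) {K₁ : Subgroup G} (hK : fx e₁ ≤ K₁) :
    Cardinal.mk (Closed G e₁ v) ≤
      Cardinal.mk {P : Subgroup G // fx v ≤ P ∧ P ≤ K₁} := by
  refine Cardinal.mk_le_of_injective
    (f := fun T => (⟨fx T.1, ?_, ?_⟩ : {P : Subgroup G // fx v ≤ P ∧ P ≤ K₁})) ?_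
  · intro k hk a ha
    exact T.2.2.1 a ha k hk
  · refine le_trans ?_ hK
    intro k hk a ha
    exact hk a (T.2.1 ha)
  · intro T T' hTT
    have h1 : (fx T.1 : Subgroup G) = fx T'.1 := congrArg Subtype.val hTT
    have key : ∀ S S' : Closed G e₁ v, (fx S.1 : Subgroup G) = fx S'.1 → S.1 ⊆ S'.1 := by
      intro S S' h a ha
      refine S'.2.2.2 a fun k hk => ?_
      have h2 : k ∈ (fx S.1 : Subgroup G) := h ▸ hk
      exact h2 a ha
    exact Subtype.ext (Set.Subset.antisymm (key _ _ h1) (key _ _ h1.symm))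

theorem count_supp {I : SuppIdeal G A}
    (h : ∃ e₀ : Set A, I.mem e₀ ∧ ∀ e, I.mem e → e₀ ⊆ e → ∀ e₁, I.mem e₁ →
      ∃ v, I.mem v ∧ Cardinal.mk (Copies G e₀ e v) < Cardinal.mk (Closed G e₁ v)) :
    ∃ K : Subgroup G, (suppFilter I).mem K ∧ ∀ V₀ : Subgroup G, (suppFilter I).mem V₀ →
      ∃ D : Subgroup G, (suppFilter I).mem D ∧ D ≤ V₀ ∧
        ∀ K₁ : Subgroup G, (suppFilter I).mem K₁ → ∃ V : Subgroup G, (suppFilter I).mem V ∧
          Cardinal.mk {L : Subgroup G // V ≤ L ∧ ∃ h ∈ K, L = cj h D} <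
            Cardinal.mk {P : Subgroup G // V ≤ P ∧ P ≤ K₁} := by
  obtain ⟨e₀, he₀, h⟩ := h
  refine ⟨fx e₀, ⟨e₀, he₀, fun g hg => hg⟩, ?_⟩
  rintro V₀ ⟨e', he', hV₀⟩
  refine ⟨fx (e₀ ∪ e'), ⟨_, I.union he₀ he', fun g hg => hg⟩,
    fun g hg => hV₀ g fun a ha => hg a (Or.inr ha), ?_⟩
  rintro K₁ ⟨e₁, he₁, hK₁⟩
  obtain ⟨v, hv, hlt⟩ := h _ (I.union he₀ he') Set.subset_union_left e₁ he₁
  refine ⟨fx v, ⟨v, hv, fun g hg => hg⟩, ?_⟩
  exact (mk_conj_le e₀ _ v).trans_lt (hlt.trans_le (mk_closed_le e₁ v fun g hg => hK₁ g hg))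

/-- an independent set of fixed atoms which is large compared with the number of copies -/
theorem indep_supp {I : SuppIdeal G A}
    (h : ∀ e e₁, I.mem e → I.mem e₁ → ∃ v, I.mem v ∧ ∃ S : Set A,
      (∀ a ∈ e₁ ∪ S, ∀ k : G, (∀ b ∈ v, k • b = b) → k • a = a) ∧
      (∀ a ∈ S, ∃ k : G, (∀ b ∈ e₁, k • b = b) ∧ (∀ b ∈ S, b ≠ a → k • b = b) ∧ k • a ≠ a) ∧
      Cardinal.mk {a : A // ∀ k : G, (∀ b ∈ v, k • b = b) → k • a = a} ^ Cardinal.mk e <
        2 ^ Cardinal.mk S) :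
    ∃ e₀ : Set A, I.mem e₀ ∧ ∀ e, I.mem e → e₀ ⊆ e → ∀ e₁, I.mem e₁ →
      ∃ v, I.mem v ∧ Cardinal.mk (Copies G e₀ e v) < Cardinal.mk (Closed G e₁ v) := by
  classical
  refine ⟨∅, I.empty, ?_⟩
  intro e he _ e₁ he₁
  obtain ⟨v, hv, S, hSv, hind, hcard⟩ := h e e₁ he he₁
  refine ⟨v, hv, ?_⟩
  -- few copies
  have h1 : Cardinal.mk (Copies G ∅ e v) ≤
      Cardinal.mk {a : A // ∀ k : G, (∀ b ∈ v, k • b = b) → k • a = a} ^ Cardinal.mk e := by
    let Fx := {a : A // ∀ k : G, (∀ b ∈ v, k • b = b) → k • a = a}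
    have h2 : Cardinal.mk (Copies G ∅ e v) ≤ Cardinal.mk (e → Fx) := by
      refine Cardinal.mk_le_of_injective (f := fun f => fun b => (⟨f.1 b, f.2.2 b⟩ : Fx)) ?_
      intro f g hfg
      apply Subtype.ext
      funext b
      exact congrArg Subtype.val (congrFun hfg b)
    rwa [← Cardinal.power_def] at h2
  -- many closed sets
  have h4 : Cardinal.mk (Set S) ≤ Cardinal.mk (Closed G e₁ v) := by
    let cl : Set A → Set A := fun U => {a | ∀ k : G, (∀ b ∈ e₁ ∪ U, k • b = b) → k • a = a}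
    refine Cardinal.mk_le_of_injective
      (f := fun J : Set S => (⟨cl (Subtype.val '' J), ?_, ?_, ?_⟩ : Closed G e₁ v)) ?_
    · intro a ha k hk
      exact hk a (Or.inl ha)
    · intro a ha k hk
      refine ha k ?_
      rintro b (hb | ⟨c, -, rfl⟩)
      · exact hSv b (Or.inl hb) k hk
      · exact hSv c (Or.inr c.2) k hk
    · intro a ha k hk
      refine ha k ?_
      intro b hb
      exact hb k hk
    · intro J J' hJJ
      have h5 : cl (Subtype.val '' J) = cl (Subtype.val '' J') := congrArg Subtype.val hJJ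
      have key : ∀ J J' : Set S, cl (Subtype.val '' J) = cl (Subtype.val '' J') → J ⊆ J' := by
        intro J J' h6 s hs
        by_contra hs'
        obtain ⟨k, hk1, hk2, hk3⟩ := hind s s.2
        apply hk3
        have h7 : (s : A) ∈ cl (Subtype.val '' J') := by
          rw [← h6]
          intro k' hk'
          exact hk' s (Or.inr ⟨s, hs, rfl⟩)
        refine h7 k ?_
        rintro b (hb | ⟨c, hc, rfl⟩)
        · exact hk1 b hb
        · refine hk2 c c.2 ?_
          intro hcs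
          exact hs' (Subtype.ext hcs ▸ hc)
      exact Set.Subset.antisymm (key _ _ h5) (key _ _ h5.symm)
  refine h1.trans_lt (hcard.trans_le ?_)
  rw [← Cardinal.mk_set]
  exact h4

end Vale.Agent.P323.H258
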